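import Vale.Agent.P043.T2.Defs

/-! # P043: the covered sets of the classes (helper957) -/

namespace Vale.Agent.P043.T2.H957

open MeasureTheory Set Vale.Agent.P043.T2

theorem xof_ae (hAl : StAl) {t : ℝ} (ht : Good t) {A : Set (ℝ × ℝ)} (hT : Tiles2 (Om t) A)
    (hP : Per2 A) :
    ∀ᵐ x : ℝ, ∃ β : ℝ, ∀ y : ℝ, (x ∈ Xof t A y ↔ ∃ n : ℤ, y = β + n) := by
  filter_upwards [hAl t ht A hT hP] with x hx
  obtain ⟨β, hβ⟩ := hx
  refine ⟨β, fun y => ?_⟩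
  have h := hβ 0 y
  constructor
  · rintro ⟨q, hq⟩
    by_contra hn
    exact h.2 hn q hq
  · intro hn
    obtain ⟨q, hq, _⟩ := h.1 hn
    exact ⟨q, hq⟩

theorem xof_disj (hAl : StAl) {t : ℝ} (ht : Good t) {A : Set (ℝ × ℝ)} (hT : Tiles2 (Om t) A)
    (hP : Per2 A) {a b : ℝ} (hab : ¬ ∃ n : ℤ, b = a + n) :
    volume (Xof t A a ∩ Xof t A b) = 0 := by
  have h : ∀ᵐ x : ℝ, x ∉ Xof t A a ∩ Xof t A b := by
    filter_upwards [xof_ae hAl ht hT hP] with x hx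
    obtain ⟨β, hβ⟩ := hx
    rintro ⟨h1, h2⟩
    obtain ⟨n, hn⟩ := (hβ a).1 h1
    obtain ⟨m, hm⟩ := (hβ b).1 h2
    exact hab ⟨m - n, by push_cast; linarith⟩
  have h' := measure_eq_zero_iff_ae_notMem.2 h
  exact h'

theorem xof_per1 (hPer : StPer) (hC : StClsOf) {t : ℝ} (ht : Good t) {A : Set (ℝ × ℝ)}
    (hT : Tiles2 (Om t) A) (hP : Per2 A) (α x : ℝ) :
    x + 1 ∈ Xof t A α ↔ x ∈ Xof t A α := by
  have hp := hPer t ht _ _ (hC t ht A hT hP α)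
  have key : ∀ (b : ℝ) (n : ℤ), (b + 1, α - n) ∈ A ↔ (b, α - n) ∈ A := by
    intro b n
    have := hp (-n) b
    simpa [Rof, sub_eq_add_neg] using this
  constructor
  · rintro ⟨⟨⟨a1, a2⟩, i⟩, h1, h2, h3⟩
    simp only at h1 h2 h3
    obtain rfl : a2 = α - rw 0 i := by linarith
    refine ⟨⟨⟨a1 - 1, α - rw 0 i⟩, i⟩, ?_, ?_, ?_⟩
    · have := key (a1 - 1) (rw 0 i)
      simp only [sub_add_cancel] at this
      exact this.1 h1
    · simp
    · simp only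
      convert h3 using 1
      ring
  · rintro ⟨⟨⟨a1, a2⟩, i⟩, h1, h2, h3⟩
    simp only at h1 h2 h3
    obtain rfl : a2 = α - rw 0 i := by linarith
    refine ⟨⟨⟨a1 + 1, α - rw 0 i⟩, i⟩, (key a1 (rw 0 i)).2 h1, ?_, ?_⟩
    · simp
    · simp only
      convert h3 using 1
      ring

theorem xof_shift {t : ℝ} {A : Set (ℝ × ℝ)} {l : ℝ × ℝ} (hl : ∀ a, l + a ∈ A ↔ a ∈ A)
    (α x : ℝ) : x + l.1 ∈ Xof t A (α + l.2) ↔ x ∈ Xof t A α := by
  constructor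
  · rintro ⟨⟨⟨a1, a2⟩, i⟩, h1, h2, h3⟩
    simp only at h1 h2 h3
    refine ⟨⟨⟨a1 - l.1, a2 - l.2⟩, i⟩, ?_, ?_, ?_⟩
    · refine (hl _).1 ?_
      convert h1 using 1
      ext <;> simp
    · simp only; linarith
    · simp only
      convert h3 using 1
      ring
  · rintro ⟨⟨⟨a1, a2⟩, i⟩, h1, h2, h3⟩
    simp only at h1 h2 h3
    refine ⟨⟨⟨a1 + l.1, a2 + l.2⟩, i⟩, ?_, ?_, ?_⟩
    · refine (Iff.mpr (hl (a1, a2)) h1 : l + (a1, a2) ∈ A) |> fun h => ?_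
      convert h using 1
      ext <;> simp [add_comm]
    · simp only; linarith
    · simp only
      convert h3 using 1
      ring

theorem vol_per {X : Set ℝ} (hX : MeasurableSet X) (h1 : ∀ x, x + 1 ∈ X ↔ x ∈ X) (s : ℝ) :
    volume ({x | x + s ∈ X} ∩ Ico 0 1) = volume (X ∩ Ico 0 1) := by
  have e1 : {x | x + s ∈ X} ∩ Ico (0 : ℝ) 1 = (fun x => x + s) ⁻¹' (X ∩ Ico s (s + 1)) := by
    ext x
    simp only [mem_inter_iff, mem_ofPred_eq, mem_Ico, mem_preimage]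
    constructor
    · rintro ⟨h, h2, h3⟩
      exact ⟨h, by linarith, by linarith⟩
    · rintro ⟨h, h2, h3⟩
      exact ⟨h, by linarith, by linarith⟩
  rw [e1, measure_preimage_add_right]
  have f1 := isAddFundamentalDomain_Ioc (T := (1 : ℝ)) one_pos s volume
  have f0 := isAddFundamentalDomain_Ioc (T := (1 : ℝ)) one_pos 0 volume
  have hinv : ∀ g : AddSubgroup.zmultiples (1 : ℝ), (fun x => g +ᵥ x) ⁻¹' X = X := by
    rintro ⟨g, hg⟩
    obtain ⟨n, rfl⟩ := hg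
    have hper : Function.Periodic (fun x : ℝ => x ∈ X) 1 := fun x => propext (h1 x)
    ext x
    simp only [mem_preimage]
    change (n • (1 : ℝ) + x ∈ X) ↔ x ∈ X
    rw [add_comm]
    exact iff_of_eq (hper.zsmul n x)
  have e2 := f1.measure_set_eq f0 hX hinv
  have e3 : volume (X ∩ Ico s (s + 1)) = volume (X ∩ Ioc s (s + 1)) :=
    measure_congr ((ae_eq_refl X).inter Ico_ae_eq_Ioc)
  have e4 : volume (X ∩ Ico (0 : ℝ) 1) = volume (X ∩ Ioc (0 : ℝ) (0 + 1)) := by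
    rw [zero_add]
    exact measure_congr ((ae_eq_refl X).inter Ico_ae_eq_Ioc)
  rw [e3, e4, e2]

end Vale.Agent.P043.T2.H957
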