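import Vale.Agent.P043.T2.H957.Common

/-! # P043: (PIG) a class of positive measure has a slanted period (helper957) -/

namespace Vale.Agent.P043.T2.H957

open MeasureTheory Set Vale.Agent.P043.T2

theorem per_mul {A : Set (ℝ × ℝ)} {l : ℝ × ℝ} (hl : ∀ a, l + a ∈ A ↔ a ∈ A) (k : ℕ) :
    ∀ a, (k : ℝ) • l + a ∈ A ↔ a ∈ A := by
  induction k with
  | zero => intro a; simp
  | succ k ih =>
    intro a
    have e : ((k + 1 : ℕ) : ℝ) • l + a = l + ((k : ℝ) • l + a) := by
      push_cast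
      rw [add_smul, one_smul]
      abel
    rw [e, hl, ih]

theorem exists_pos {A : Set (ℝ × ℝ)} (hP : Per2 A) :
    ∃ l : ℝ × ℝ, 0 < l.2 ∧ ∀ a, l + a ∈ A ↔ a ∈ A := by
  obtain ⟨v, w, hvw, hv, hw⟩ := hP
  have neg : ∀ l : ℝ × ℝ, (∀ a, l + a ∈ A ↔ a ∈ A) → ∀ a, -l + a ∈ A ↔ a ∈ A := by
    intro l hl a
    have := hl (-l + a)
    rw [add_neg_cancel_left] at this
    exact this.symm
  have aux : ∀ l : ℝ × ℝ, (∀ a, l + a ∈ A ↔ a ∈ A) → l.2 ≠ 0 →
      ∃ l : ℝ × ℝ, 0 < l.2 ∧ ∀ a, l + a ∈ A ↔ a ∈ A := by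
    intro l hl h
    rcases lt_or_gt_of_ne h with h | h
    · exact ⟨-l, by simpa using h, neg l hl⟩
    · exact ⟨l, h, hl⟩
  by_cases h : v.2 = 0
  · refine aux w hw fun h' => hvw ?_
    rw [h, h']; ring
  · exact aux v hv h

theorem st_pig (hC : StClsOf) (hPer : StPer) (hAl : StAl) : StPig := by
  intro t ht A hT hP α hα
  obtain ⟨l, hl2, hl⟩ := exists_pos hP
  by_contra hcon
  have hno : ∀ k : ℕ, 0 < k → ¬ ∃ n : ℤ, (k : ℝ) * l.2 = n := by
    rintro k hk ⟨n, hn⟩
    apply hcon
    have hn0 : 0 < n := by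
      have : (0 : ℝ) < n := by
        rw [← hn]; positivity
      exact_mod_cast this
    refine ⟨n.toNat, (k : ℝ) * l.1, by omega, fun m b => ?_⟩
    have hcast : ((n.toNat : ℕ) : ℤ) = n := Int.toNat_of_nonneg hn0.le
    have h := per_mul hl k (b, α + m)
    have e : (k : ℝ) • l + (b, α + (m : ℝ)) = (b + (k : ℝ) * l.1, α + ((m + (n.toNat : ℤ) : ℤ) : ℝ)) := by
      rw [hcast]
      ext
      · simp [add_comm]
      · simp only [Prod.snd_add, Prod.smul_snd, smul_eq_mul, hn]
        push_cast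
        ring
    rw [e] at h
    exact h
  have hmeas : ∀ β, MeasurableSet (Xof t A β) := fun β => (hC t ht A hT hP β).meas
  let S : ℕ → Set ℝ := fun k => Xof t A (α + k * l.2) ∩ Ico 0 1
  have hSm : ∀ k, MeasurableSet (S k) := fun k => (hmeas _).inter measurableSet_Ico
  have hSv : ∀ k, volume (S k) = volume (Xof t A α ∩ Ico 0 1) := by
    intro k
    have h1 := vol_per (hmeas (α + k * l.2)) (xof_per1 hPer hC ht hT hP _) (k * l.1)
    rw [← h1]
    congr 1
    ext x
    have := xof_shift (per_mul hl k) (t := t) α x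
    simp only [Prod.smul_fst, Prod.smul_snd, smul_eq_mul] at this
    simp only [mem_inter_iff, mem_ofPred_eq]
    rw [this]
  have hSd : Pairwise (Function.onFun (AEDisjoint volume) S) := by
    have key : ∀ i j : ℕ, i < j → volume (S i ∩ S j) = 0 := by
      intro i j hij
      refine measure_mono_null ?_ (xof_disj hAl ht hT hP (a := α + i * l.2) (b := α + j * l.2) ?_)
      · intro x hx
        exact ⟨hx.1.1, hx.2.1⟩
      · rintro ⟨n, hn⟩
        refine hno (j - i) (by omega) ⟨n, ?_⟩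
        rw [Nat.cast_sub hij.le]
        linarith
    intro i j hij
    rcases lt_or_gt_of_ne hij with h | h
    · exact key i j h
    · have := key j i h
      rw [inter_comm] at this
      exact this
  have h1 := measure_iUnion₀ hSd fun k => (hSm k).nullMeasurableSet
  have h2 : volume (⋃ k, S k) ≤ volume (Ico (0 : ℝ) 1) :=
    measure_mono (iUnion_subset fun k => inter_subset_right)
  rw [h1] at h2
  simp only [hSv] at h2
  rw [ENNReal.tsum_const_eq_top_of_ne_zero hα.ne'] at h2
  simp at h2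

end Vale.Agent.P043.T2.H957
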