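import Vale.Agent.P043.T2.H957.Common

/-! # P043: (SUM) the measures of the classes sum to 1 (helper957) -/

namespace Vale.Agent.P043.T2.H957

open MeasureTheory Set Vale.Agent.P043.T2

/-- A translation set of a tiling is countable. -/
theorem countable_of_tiles {O A : Set (ℝ × ℝ)} (hO : MeasurableSet O) (hpos : 0 < volume O)
    (hT : Tiles2 O A) : A.Countable := by
  have hmeas : ∀ a : A, MeasurableSet {p : ℝ × ℝ | p - (a : ℝ × ℝ) ∈ O} := fun a =>
    (measurable_id.sub_const (a : ℝ × ℝ)) hO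
  have hvol : ∀ a : A, volume {p : ℝ × ℝ | p - (a : ℝ × ℝ) ∈ O} = volume O := by
    intro a
    have : {p : ℝ × ℝ | p - (a : ℝ × ℝ) ∈ O} = (fun p => p + (-(a : ℝ × ℝ))) ⁻¹' O := by
      ext p; simp [sub_eq_add_neg]
    rw [this, measure_preimage_add_right]
  have hd : Pairwise (Function.onFun (AEDisjoint (volume : Measure (ℝ × ℝ)))
      fun a : A => {p : ℝ × ℝ | p - (a : ℝ × ℝ) ∈ O}) := by
    intro a b hab
    have h := hT.2 a a.2 b b.2 (fun h => hab (Subtype.ext h))
    have h' : volume ({p : ℝ × ℝ | p - (a : ℝ × ℝ) ∈ O} ∩ {p : ℝ × ℝ | p - (b : ℝ × ℝ) ∈ O}) = 0 := by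
      refine measure_eq_zero_iff_ae_notMem.2 ?_
      filter_upwards [h] with p hp hp'
      exact hp ⟨hp'.1, hp'.2⟩
    exact h'
  have := Measure.countable_meas_pos_of_disjoint_iUnion₀
    (fun a : A => (hmeas a).nullMeasurableSet) hd
  have huniv : {a : A | 0 < volume {p : ℝ × ℝ | p - (a : ℝ × ℝ) ∈ O}} = univ := by
    ext a
    simp [hvol a, hpos]
  rw [huniv] at this
  exact countable_coe_iff.1 (countable_univ_iff.1 this)

theorem st_sum (hC : StClsOf) (hAl : StAl) (hOm : StOm) : StSum := by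
  intro t ht A hT hP hlow
  have hA : A.Countable := countable_of_tiles (hOm t).2.1 (hOm t).2.2 hT
  have hmeas : ∀ β, MeasurableSet (Xof t A β) := fun β => (hC t ht A hT hP β).meas
  let S0 : Set ℝ := (fun a : ℝ × ℝ => Int.fract a.2) '' A
  have hS0 : S0.Countable := hA.image _
  have hlt : ∀ α ∈ S0, 0 ≤ α ∧ α < 1 := by
    rintro α ⟨a, _, rfl⟩
    exact ⟨Int.fract_nonneg _, Int.fract_lt_one _⟩
  let Y : ℝ → Set ℝ := fun α => Xof t A α ∩ Ico 0 1
  have hYm : ∀ α, MeasurableSet (Y α) := fun α => (hmeas α).inter measurableSet_Ico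
  have hdisj : ∀ α ∈ S0, ∀ β ∈ S0, α ≠ β → volume (Y α ∩ Y β) = 0 := by
    intro α hα β hβ hne
    refine measure_mono_null ?_ (xof_disj hAl ht hT hP (a := α) (b := β) ?_)
    · intro x hx
      exact ⟨hx.1.1, hx.2.1⟩
    · rintro ⟨n, hn⟩
      have h1 := hlt α hα
      have h2 := hlt β hβ
      have h3 : (n : ℝ) < 1 := by linarith
      have h4 : (-1 : ℝ) < n := by linarith
      have h5 : n < 1 := by exact_mod_cast h3
      have h6 : -1 < n := by exact_mod_cast h4
      obtain rfl : n = 0 := by omega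
      apply hne
      simp at hn
      exact hn.symm
  let P : Set ℝ := {α | α ∈ S0 ∧ 0 < volume (Y α)}
  have hlow' : ∀ α ∈ P, ENNReal.ofReal (21 / 50) ≤ volume (Y α) := by
    intro α hα
    have h := hlow α hα.2
    exact ENNReal.ofReal_le_of_le_toReal h
  have hYle : ∀ α, volume (Y α) ≤ 1 := by
    intro α
    refine (measure_mono inter_subset_right).trans ?_
    simp
  -- any finite subset of `P` has sum at most 1
  have hfin_sum : ∀ F : Finset ℝ, (∀ α ∈ F, α ∈ S0) → ∑ α ∈ F, volume (Y α) =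
      volume (⋃ α ∈ F, Y α) := by
    intro F hF
    rw [measure_biUnion_finset₀]
    · intro α hα β hβ hne
      exact hdisj α (hF α hα) β (hF β hβ) hne
    · intro α _
      exact (hYm α).nullMeasurableSet
  have hcard : ∀ F : Finset ℝ, (∀ α ∈ F, α ∈ P) → F.card ≤ 2 := by
    intro F hF
    have h1 := hfin_sum F fun α hα => (hF α hα).1
    have h2 : volume (⋃ α ∈ F, Y α) ≤ 1 := by
      refine (measure_mono (?_ : _ ⊆ Ico (0 : ℝ) 1)).trans (by simp)
      exact iUnion₂_subset fun α _ => inter_subset_right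
    have h3 : (F.card : ENNReal) * ENNReal.ofReal (21 / 50) ≤ 1 := by
      rw [← nsmul_eq_mul, ← Finset.sum_const]
      exact (Finset.sum_le_sum fun α hα => hlow' α (hF α hα)).trans (h1.le.trans h2)
    by_contra hc
    push Not at hc
    have h4 : (3 : ENNReal) * ENNReal.ofReal (21 / 50) ≤ 1 := by
      refine le_trans ?_ h3
      gcongr
      exact_mod_cast hc
    have h5 : ENNReal.ofReal (3 * (21 / 50)) ≤ ENNReal.ofReal 1 := by
      rw [ENNReal.ofReal_mul (by norm_num)]
      simpa using h4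
    rw [ENNReal.ofReal_le_ofReal_iff (by norm_num)] at h5
    norm_num at h5
  have hPfin : P.Finite := by
    by_contra hinf
    obtain ⟨F, hF, hc⟩ := (Set.not_finite.1 hinf |> fun h : P.Infinite => h.exists_subset_card_eq 3)
    have := hcard F fun α hα => hF hα
    omega
  refine ⟨hPfin.toFinset, ?_, ?_⟩
  · intro α hα
    exact ((hPfin.mem_toFinset).1 hα).2
  · have hsum := hfin_sum hPfin.toFinset fun α hα => ((hPfin.mem_toFinset).1 hα).1
    have hcov : volume (⋃ α ∈ hPfin.toFinset, Y α) = 1 := by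
      apply le_antisymm
      · refine (measure_mono (?_ : _ ⊆ Ico (0 : ℝ) 1)).trans (by simp)
        exact iUnion₂_subset fun α _ => inter_subset_right
      · have hnull : volume (⋃ α ∈ S0 \ P, Y α) = 0 := by
          rw [measure_biUnion_null_iff (hS0.mono sdiff_subset)]
          intro α hα
          by_contra h
          exact hα.2 ⟨hα.1, pos_iff_ne_zero.2 h⟩
        have hae : ∀ᵐ x : ℝ, x ∈ Ico (0 : ℝ) 1 → x ∈ (⋃ α ∈ hPfin.toFinset, Y α) := by
          filter_upwards [xof_ae hAl ht hT hP, measure_eq_zero_iff_ae_notMem.1 hnull] with x hx hx2 hx01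
          obtain ⟨β, hβ⟩ := hx
          have hxβ : x ∈ Xof t A β := (hβ β).2 ⟨0, by simp⟩
          obtain ⟨⟨⟨a1, a2⟩, i⟩, h1, h2, h3⟩ := hxβ
          simp only at h1 h2 h3
          have hmem : Int.fract a2 ∈ S0 := ⟨(a1, a2), h1, rfl⟩
          have hxα : x ∈ Xof t A (Int.fract a2) := by
            rw [hβ]
            refine ⟨-(rw 0 i) - ⌊a2⌋, ?_⟩
            have := Int.floor_add_fract a2
            push_cast
            linarith
          have hxY : x ∈ Y (Int.fract a2) := ⟨hxα, hx01⟩
          simp only [mem_iUnion, exists_prop]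
          by_cases hp : Int.fract a2 ∈ P
          · exact ⟨_, (hPfin.mem_toFinset).2 hp, hxY⟩
          · exfalso
            apply hx2
            simp only [mem_iUnion, exists_prop]
            exact ⟨_, ⟨hmem, hp⟩, hxY⟩
        have h1 : volume (Ico (0 : ℝ) 1) ≤ volume (⋃ α ∈ hPfin.toFinset, Y α) :=
          measure_mono_ae hae
        simpa using h1
    rw [hcov] at hsum
    rw [← ENNReal.toReal_sum]
    · change (∑ α ∈ hPfin.toFinset, volume (Y α)).toReal = 1
      rw [hsum]
      simp
    · intro α _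
      exact ((hYle α).trans_lt ENNReal.one_lt_top).ne

end Vale.Agent.P043.T2.H957
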